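import Mathlib
import Vale.Agent.Lib.P127.Contractive

open MeasureTheory

namespace Vale.Agent.Results.P127.A_ContractiveKakeya

/-- Kakeya sets whose segments move contractively with the direction have nonempty interior.

`K` is a subset of Euclidean `n`-space (`n ≥ 1`) that contains, for every unit vector `e`, the unit
segment `{a e + t • e : 0 ≤ t ≤ 1}`; so `K` is a Kakeya set and `a` a choice of positions of its
unit segments.  Fix a parameter `s ∈ [0, 1]` and assume that the point `a e + s • e` of the segment
with direction `e` is an `L`-Lipschitz function of `e` on the unit sphere, where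
`L < max s (1 - s)` (for `s = 0`: the initial points form a Lipschitz function with constant
less than `1`; for `s = 1/2`: the midpoints, with constant less than `1/2`).

Then `K` has nonempty interior.  In particular its Hausdorff dimension is `n` and its Lebesgue
(outer) measure is positive. -/
theorem result (n : ℕ) (hn : 1 ≤ n) (K : Set (EuclideanSpace ℝ (Fin n)))
    (a : EuclideanSpace ℝ (Fin n) → EuclideanSpace ℝ (Fin n))
    (hK : ∀ e : EuclideanSpace ℝ (Fin n), ‖e‖ = 1 →
      ∀ t : ℝ, 0 ≤ t → t ≤ 1 → a e + t • e ∈ K)
    (s L : ℝ) (hs0 : 0 ≤ s) (hs1 : s ≤ 1) (hL : L < max s (1 - s))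
    (ha : ∀ e e' : EuclideanSpace ℝ (Fin n), ‖e‖ = 1 → ‖e'‖ = 1 →
      ‖(a e + s • e) - (a e' + s • e')‖ ≤ L * ‖e - e'‖) :
    (interior K).Nonempty ∧ dimH K = n ∧ 0 < volume K := by
  have he : ∃ e : EuclideanSpace ℝ (Fin n), ‖e‖ = 1 :=
    ⟨EuclideanSpace.single (⟨0, hn⟩ : Fin n) (1 : ℝ), by simp⟩
  have hint : (interior K).Nonempty := by
    rcases lt_max_iff.1 hL with h | h
    · -- backward half of the segments: `b e = a (-e) - s • e`, length `s`
      refine Vale.Agent.Lib.P127.interior_nonempty_of_contractive he K
        (fun e => a (-e) + s • (-e)) s L h ?_ ?_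
      · intro e he1 t ht0 hts
        have h1 := hK (-e) (by rw [norm_neg]; exact he1) (s - t) (by linarith) (by linarith)
        have h2 : a (-e) + (s - t) • (-e) = a (-e) + s • (-e) + t • e := by
          rw [sub_smul, smul_neg, smul_neg]; abel
        rw [h2] at h1
        exact h1
      · intro e e' he1 he1'
        have h1 := ha (-e) (-e') (by rw [norm_neg]; exact he1) (by rw [norm_neg]; exact he1')
        have h2 : ‖-e - -e'‖ = ‖e - e'‖ := by
          rw [← neg_sub', norm_neg]
        rw [h2] at h1
        exact h1
    · -- forward half of the segments: `b e = a e + s • e`, length `1 - s`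
      refine Vale.Agent.Lib.P127.interior_nonempty_of_contractive he K
        (fun e => a e + s • e) (1 - s) L h ?_ ha
      intro e he1 t ht0 hts
      have h1 := hK e he1 (s + t) (by linarith) (by linarith)
      have h2 : a e + (s + t) • e = a e + s • e + t • e := by
        rw [add_smul]; abel
      rw [h2] at h1
      exact h1
  refine ⟨hint, ?_, ?_⟩
  · rw [Real.dimH_of_nonempty_interior hint, finrank_euclideanSpace_fin]
  · exact lt_of_lt_of_le (isOpen_interior.measure_pos volume hint) (measure_mono interior_subset)

end Vale.Agent.Results.P127.A_ContractiveKakeya
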