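import Mathlib
import Vale.Agent.Lib.P127.Smooth

open MeasureTheory

namespace Vale.Agent.Results.P127.B_SmoothKakeya

/-- Kakeya sets whose segments depend in a continuously differentiable way on the direction, near
at least one direction, have nonempty interior.

`K` is a subset of Euclidean `n`-space (`n ≥ 1`) that contains, for every unit vector `e`, the unit
segment `{a e + t • e : 0 ≤ t ≤ 1}`; so `K` is a Kakeya set and `a` a choice of positions of its
unit segments (only the values of `a` on the unit sphere matter).  Assume that `a` is continuously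
differentiable on a neighbourhood of one unit vector `e₀` (`ContDiffAt ℝ 1 a e₀`); no bound on the
derivative is assumed.

Then `K` has nonempty interior.  In particular its Hausdorff dimension is `n` and its Lebesgue
(outer) measure is positive. -/
theorem result (n : ℕ) (K : Set (EuclideanSpace ℝ (Fin n)))
    (a : EuclideanSpace ℝ (Fin n) → EuclideanSpace ℝ (Fin n))
    (hK : ∀ e : EuclideanSpace ℝ (Fin n), ‖e‖ = 1 →
      ∀ t : ℝ, 0 ≤ t → t ≤ 1 → a e + t • e ∈ K)
    (e₀ : EuclideanSpace ℝ (Fin n)) (he₀ : ‖e₀‖ = 1) (ha : ContDiffAt ℝ 1 a e₀) :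
    (interior K).Nonempty ∧ dimH K = n ∧ 0 < volume K := by
  have hint : (interior K).Nonempty :=
    Vale.Agent.Lib.P127.interior_nonempty_of_contDiffAt K a hK e₀ he₀ ha
  refine ⟨hint, ?_, ?_⟩
  · rw [Real.dimH_of_nonempty_interior hint, finrank_euclideanSpace_fin]
  · exact lt_of_lt_of_le (isOpen_interior.measure_pos volume hint) (measure_mono interior_subset)

end Vale.Agent.Results.P127.B_SmoothKakeya
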