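import Mathlib
import Vale.Agent.Lib.P127.Lipschitz

open MeasureTheory
open scoped NNReal ENNReal

namespace Vale.Agent.Results.P127.C_LipschitzKakeya

/-- Kakeya sets whose segments depend in a Lipschitz way on the direction, near at least one
direction, have positive Lebesgue measure and full Hausdorff dimension.

`K` is a subset of Euclidean `n`-space, `e₀` a unit vector and `ρ > 0`.  Assume that `K` contains
the unit segment `{a e + t • e : 0 ≤ t ≤ 1}` for every unit vector `e` with `‖e - e₀‖ < ρ` (this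
holds for every Kakeya set `K` with a choice `a` of positions of its unit segments), and that `a`
is Lipschitz on these unit vectors, with an arbitrary constant `L`.  For `ρ > 2` the condition
`‖e - e₀‖ < ρ` holds for all unit vectors, so this includes the case of a position function that
is Lipschitz on the whole unit sphere.

Then the Lebesgue (outer) measure of `K` is positive and the Hausdorff dimension of `K` is `n`. -/
theorem result (n : ℕ) (K : Set (EuclideanSpace ℝ (Fin n)))
    (a : EuclideanSpace ℝ (Fin n) → EuclideanSpace ℝ (Fin n))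
    (e₀ : EuclideanSpace ℝ (Fin n)) (he₀ : ‖e₀‖ = 1) (ρ : ℝ) (hρ : 0 < ρ)
    (hK : ∀ e : EuclideanSpace ℝ (Fin n), ‖e‖ = 1 → ‖e - e₀‖ < ρ →
      ∀ t : ℝ, 0 ≤ t → t ≤ 1 → a e + t • e ∈ K)
    (L : ℝ)
    (ha : ∀ e e' : EuclideanSpace ℝ (Fin n), ‖e‖ = 1 → ‖e'‖ = 1 →
      ‖e - e₀‖ < ρ → ‖e' - e₀‖ < ρ → ‖a e - a e'‖ ≤ L * ‖e - e'‖) :
    0 < volume K ∧ dimH K = n := by
  have hfr : Module.finrank ℝ (EuclideanSpace ℝ (Fin n)) = n := finrank_euclideanSpace_fin
  have h1 : (volume : Measure (EuclideanSpace ℝ (Fin n))) K ≠ 0 :=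
    Vale.Agent.Lib.P127.measure_ne_zero_of_lipschitz volume K a e₀ he₀ ρ hρ hK L ha
  have h2 : (μH[(Module.finrank ℝ (EuclideanSpace ℝ (Fin n)) : ℝ)] :
      Measure (EuclideanSpace ℝ (Fin n))) K ≠ 0 :=
    Vale.Agent.Lib.P127.measure_ne_zero_of_lipschitz _ K a e₀ he₀ ρ hρ hK L ha
  refine ⟨pos_iff_ne_zero.2 h1, le_antisymm ?_ ?_⟩
  · calc dimH K ≤ dimH (Set.univ : Set (EuclideanSpace ℝ (Fin n))) :=
          dimH_mono (Set.subset_univ K)
      _ = Module.finrank ℝ (EuclideanSpace ℝ (Fin n)) := Real.dimH_univ_eq_finrank _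
      _ = n := by rw [hfr]
  · have h3 : ((n : ℝ≥0) : ℝ≥0∞) ≤ dimH K := by
      apply le_dimH_of_hausdorffMeasure_ne_zero
      rw [hfr] at h2
      simpa using h2
    simpa using h3

end Vale.Agent.Results.P127.C_LipschitzKakeya
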